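import Vale.Agent.Lib.P064F.Defs

open Finset
open scoped Classical

namespace Vale.Agent.Lib.P064F

open Vale.Agent.Lib.P064

variable {V : Type} [Fintype V] {W : Type} [Fintype W]

/-- The edge image of a map. -/
noncomputable def eimg (K : SimpleGraph W) (g : W → V) : Finset (Sym2 V) :=
  K.edgeFinset.image (Sym2.map g)

lemma eimg_sub {H : SimpleGraph V} {K : SimpleGraph W} {g : W → V} (hg : g ∈ Om H K) :
    eimg K g ⊆ H.edgeFinset := by
  intro e he
  obtain ⟨e0, he0, rfl⟩ := mem_image.1 he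
  have h0 := SimpleGraph.mem_edgeFinset.1 he0
  rw [SimpleGraph.mem_edgeFinset]
  revert h0
  induction e0 using Sym2.ind with
  | _ a b =>
    intro h0
    exact (mem_Om.1 hg).2 a b h0

lemma card_eimg {K : SimpleGraph W} {g : W → V} (hg : Function.Injective g) :
    (eimg K g).card = K.edgeFinset.card :=
  Finset.card_image_of_injective _ (Sym2.map.injective hg)

lemma exists_iso {H : SimpleGraph V} {K : SimpleGraph W} (hK : NoIso K) {g g0 : W → V}
    (hg : g ∈ Om H K) (hg0 : g0 ∈ Om H K) (he : eimg K g = eimg K g0) :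
    ∃ σ : K ≃g K, ∀ w, g0 (σ w) = g w := by
  have hgi := (mem_Om.1 hg).1
  have hg0i := (mem_Om.1 hg0).1
  have hex : ∀ w, ∃ w', g0 w' = g w := by
    intro w
    obtain ⟨u, hu⟩ := hK w
    have h1 : s(g w, g u) ∈ eimg K g0 := by
      rw [← he]
      exact mem_image.2 ⟨s(w, u), SimpleGraph.mem_edgeFinset.2 hu, by simp⟩
    obtain ⟨e0, _, he0⟩ := mem_image.1 h1
    induction e0 using Sym2.ind with
    | _ a b =>
      simp only [Sym2.map_mk, Sym2.eq_iff] at he0
      rcases he0 with ⟨h, _⟩ | ⟨_, h⟩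
      · exact ⟨a, h⟩
      · exact ⟨b, h⟩
  choose σ hσ using hex
  have hinj : Function.Injective σ := by
    intro a b hab
    apply hgi
    rw [← hσ a, ← hσ b, hab]
  have hbij : Function.Bijective σ := Finite.injective_iff_bijective.1 hinj
  refine ⟨⟨Equiv.ofBijective σ hbij, ?_⟩, fun w => hσ w⟩
  intro a b
  simp only [Equiv.ofBijective_apply]
  constructor
  · intro hab
    have h1 : s(g a, g b) ∈ eimg K g := by
      rw [he]
      refine mem_image.2 ⟨s(σ a, σ b), SimpleGraph.mem_edgeFinset.2 hab, ?_⟩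
      simp [hσ]
    obtain ⟨e1, he1, he1'⟩ := mem_image.1 h1
    have : e1 = s(a, b) := by
      apply Sym2.map.injective hgi
      rw [he1']
      simp
    rw [this] at he1
    exact SimpleGraph.mem_edgeFinset.1 he1
  · intro hab
    have h1 : s(g a, g b) ∈ eimg K g0 := by
      rw [← he]
      exact mem_image.2 ⟨s(a, b), SimpleGraph.mem_edgeFinset.2 hab, by simp⟩
    obtain ⟨e1, he1, he1'⟩ := mem_image.1 h1
    have : e1 = s(σ a, σ b) := by
      apply Sym2.map.injective hg0i
      rw [he1']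
      simp [hσ]
    rw [this] at he1
    exact SimpleGraph.mem_edgeFinset.1 he1

lemma finite_aut (K : SimpleGraph W) : Finite (K ≃g K) :=
  Finite.of_injective (fun f => (f.toEquiv : Equiv _ _)) (by
    intro f g h
    ext x
    exact congrArg (fun e : Equiv _ _ => e x) h)

lemma fiber_le_aut {H : SimpleGraph V} {K : SimpleGraph W} (hK : NoIso K) (a : Finset (Sym2 V))
    (ha : a ∈ (Om H K).image (eimg K)) :
    ((Om H K).filter fun g => eimg K g = a).card ≤ Nat.card (K ≃g K) := by
  obtain ⟨g0, hg0, rfl⟩ := mem_image.1 ha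
  have : Finite (K ≃g K) := finite_aut K
  have hex : ∀ g : ↥((Om H K).filter fun g => eimg K g = eimg K g0),
      ∃ σ : K ≃g K, ∀ w, g0 (σ w) = g.1 w := by
    rintro ⟨g, hg⟩
    obtain ⟨h1, h2⟩ := mem_filter.1 hg
    exact exists_iso hK h1 hg0 h2
  choose τ hτ using hex
  have h1 : ((Om H K).filter fun g => eimg K g = eimg K g0).card =
      Nat.card ↥((Om H K).filter fun g => eimg K g = eimg K g0) := by
    rw [Nat.card_eq_fintype_card, Fintype.card_coe]
  rw [h1]
  apply Nat.card_le_card_of_injective τ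
  intro a b hab
  apply Subtype.ext
  funext w
  rw [← hτ a w, ← hτ b w, hab]

lemma card_Om_le {H : SimpleGraph V} {K : SimpleGraph W} (hK : NoIso K) :
    (Om H K).card ≤ Nat.card (K ≃g K) * 2 ^ H.edgeFinset.card := by
  have h := Finset.card_le_mul_card_image (f := eimg K) (Om H K) (Nat.card (K ≃g K))
    (fun a ha => fiber_le_aut hK a ha)
  have him : (Om H K).image (eimg K) ⊆ H.edgeFinset.powerset := by
    intro a ha
    obtain ⟨g, hg, rfl⟩ := mem_image.1 ha
    exact Finset.mem_powerset.2 (eimg_sub hg)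
  have h2 := Finset.card_le_card him
  rw [Finset.card_powerset] at h2
  exact h.trans (Nat.mul_le_mul_left _ h2)

/-- The weight `n^|W| q^e(K)`. -/
noncomputable def wt (n : ℕ) (q : ℝ) (K : SimpleGraph W) : ℝ :=
  (n : ℝ) ^ Fintype.card W * q ^ K.edgeFinset.card

lemma wt_pos {n : ℕ} (hn : 0 < n) {q : ℝ} (hq : 0 < q) (K : SimpleGraph W) : 0 < wt n q K := by
  have : (0 : ℝ) < n := by exact_mod_cast hn
  unfold wt
  positivity

lemma nonempty_copy {H : SimpleGraph V} {K : SimpleGraph W} {g : W → V} (hg : g ∈ Om H K) :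
    Nonempty (K.Copy H) := by
  obtain ⟨h1, h2⟩ := mem_Om.1 hg
  exact ⟨⟨⟨g, fun {a b} hab => h2 a b hab⟩, h1⟩⟩

/-- The end bound. -/
lemma card_Om_le_wt {H : SimpleGraph V} {n : ℕ} {q : ℝ} (hq0 : 0 ≤ q) (hq : HypK H n q)
    {K : SimpleGraph W} (hK : NoIso K) :
    ((Om H K).card : ℝ) ≤ 2 ^ (H.edgeFinset.card + 1) * wt n q K := by
  by_cases hne : (Om H K).Nonempty
  · obtain ⟨g, hg⟩ := hne
    have h1 := hq W K (nonempty_copy hg)
    have h2 := card_Om_le (H := H) hK
    have h3 : ((Om H K).card : ℝ) ≤ (Nat.card (K ≃g K) : ℝ) * 2 ^ H.edgeFinset.card := by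
      exact_mod_cast h2
    have h4 : (0 : ℝ) ≤ 2 ^ H.edgeFinset.card := by positivity
    calc ((Om H K).card : ℝ) ≤ (Nat.card (K ≃g K) : ℝ) * 2 ^ H.edgeFinset.card := h3
      _ ≤ (2 * (n : ℝ) ^ Fintype.card W * q ^ K.edgeFinset.card) * 2 ^ H.edgeFinset.card :=
          mul_le_mul_of_nonneg_right h1 h4
      _ = _ := by unfold wt; rw [pow_succ]; ring
  · rw [Finset.not_nonempty_iff_eq_empty] at hne
    rw [hne]
    simp only [card_empty, Nat.cast_zero]
    have : 0 ≤ wt n q K := by unfold wt; positivity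
    positivity

end Vale.Agent.Lib.P064F
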