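import Vale.Agent.Lib.P064.Final

open Finset
open scoped Classical

namespace Vale.Agent.Lib.P064F

open Vale.Agent.Lib.P064

variable {V : Type} [Fintype V]

/-- The labelled copies of `F` in `H`, as functions. -/
noncomputable def Om {α : Type} [Fintype α] (H : SimpleGraph V) (F : SimpleGraph α) :
    Finset (α → V) :=
  univ.filter fun φ => Function.Injective φ ∧ ∀ x y, F.Adj x y → H.Adj (φ x) (φ y)

lemma mem_Om {α : Type} [Fintype α] {H : SimpleGraph V} {F : SimpleGraph α} {φ : α → V} :
    φ ∈ Om H F ↔ Function.Injective φ ∧ ∀ x y, F.Adj x y → H.Adj (φ x) (φ y) := by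
  simp [Om]

/-- No isolated vertices. -/
def NoIso {α : Type} (F : SimpleGraph α) : Prop := ∀ x, ∃ y, F.Adj x y

/-- Number of labelled copies whose image uses the edge `h`. -/
noncomputable def useCount {α : Type} [Fintype α] (H : SimpleGraph V) (F : SimpleGraph α)
    (h : Sym2 V) : ℕ :=
  ((Om H F).filter fun φ => h ∈ F.edgeFinset.image (Sym2.map φ)).card

/-- Flatness with parameter `Lam`: each edge of `H` is used by at most a fraction
`Lam e(F) / e(H)` of the labelled copies of `F`. -/
def Flat (H : SimpleGraph V) (Lam : ℕ) : Prop :=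
  ∀ (α : Type) [Fintype α] (F : SimpleGraph α), NoIso F → ∀ h ∈ H.edgeFinset,
    H.edgeFinset.card * useCount H F h ≤ Lam * (Om H F).card * F.edgeFinset.card

end Vale.Agent.Lib.P064F
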