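import Vale.Agent.Lib.P064F.Aut

open Finset
open scoped Classical

namespace Vale.Agent.Lib.P064F

open Vale.Agent.Lib.P064

variable {V : Type} [Fintype V] {W α : Type} [Fintype W] [Fintype α]

/-- The vertices of the glued graph. -/
abbrev GV (γ : α → Option W) : Type := W ⊕ {x : α // γ x = none}

/-- The placement of the vertices of `F` in the glued graph. -/
noncomputable def emb (γ : α → Option W) (x : α) : GV γ :=
  if h : γ x = none then Sum.inr ⟨x, h⟩ else Sum.inl ((γ x).get (Option.isSome_iff_ne_none.2 h))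

omit [Fintype W] [Fintype α] in
lemma emb_none {γ : α → Option W} {x : α} (h : γ x = none) : emb γ x = Sum.inr ⟨x, h⟩ :=
  dif_pos h

omit [Fintype W] [Fintype α] in
lemma emb_some {γ : α → Option W} {x : α} {w : W} (h : γ x = some w) : emb γ x = Sum.inl w := by
  unfold emb
  rw [dif_neg (by simp [h])]
  simp [h]

omit [Fintype W] [Fintype α] in
lemma emb_eq_inl {γ : α → Option W} {x : α} {u : W} (h : emb γ x = Sum.inl u) : γ x = some u := by
  rcases hx : γ x with _ | w
  · rw [emb_none hx] at h
    exact absurd h (by simp)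
  · rw [emb_some hx] at h
    rw [Sum.inl.injEq] at h
    rw [h]

omit [Fintype W] [Fintype α] in
lemma emb_eq_inr {γ : α → Option W} {x : α} {y : {x : α // γ x = none}}
    (h : emb γ x = Sum.inr y) : y.1 = x := by
  rcases hx : γ x with _ | w
  · rw [emb_none hx] at h
    rw [Sum.inr.injEq] at h
    rw [← h]
  · rw [emb_some hx] at h
    exact absurd h (by simp)

/-- Validity of gluing data: injective on the old part. -/
def Val (γ : α → Option W) : Prop := ∀ x y w, γ x = some w → γ y = some w → x = y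

omit [Fintype W] [Fintype α] in
lemma emb_inj {γ : α → Option W} (hv : Val γ) : Function.Injective (emb γ) := by
  intro x y hxy
  rcases hx : γ x with _ | w
  · rw [emb_none hx] at hxy
    exact (emb_eq_inr hxy.symm).symm ▸ rfl
  · rw [emb_some hx] at hxy
    exact hv x y w hx (emb_eq_inl hxy.symm)

/-- The edges of the glued graph. -/
noncomputable def GE (K : SimpleGraph W) (F : SimpleGraph α) (γ : α → Option W) :
    Finset (Sym2 (GV γ)) :=
  K.edgeFinset.image (Sym2.map Sum.inl) ∪ F.edgeFinset.image (Sym2.map (emb γ))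

/-- The glued graph. -/
noncomputable def GG (K : SimpleGraph W) (F : SimpleGraph α) (γ : α → Option W) :
    SimpleGraph (GV γ) :=
  SimpleGraph.fromEdgeSet (↑(GE K F γ) : Set (Sym2 (GV γ)))

lemma GG_adj {K : SimpleGraph W} {F : SimpleGraph α} {γ : α → Option W} {a b : GV γ} :
    (GG K F γ).Adj a b ↔ s(a, b) ∈ GE K F γ ∧ a ≠ b := by
  simp [GG, SimpleGraph.fromEdgeSet_adj]

lemma GE_not_diag {K : SimpleGraph W} {F : SimpleGraph α} {γ : α → Option W} (hv : Val γ)
    {e : Sym2 (GV γ)} (he : e ∈ GE K F γ) : ¬ e.IsDiag := by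
  rcases mem_union.1 he with h | h
  · obtain ⟨e0, he0, rfl⟩ := mem_image.1 h
    have h0 := SimpleGraph.mem_edgeFinset.1 he0
    revert h0
    induction e0 using Sym2.ind with
    | _ a b =>
      intro h0
      have hab : a ≠ b := SimpleGraph.Adj.ne h0
      simpa using hab
  · obtain ⟨e0, he0, rfl⟩ := mem_image.1 h
    have h0 := SimpleGraph.mem_edgeFinset.1 he0
    revert h0
    induction e0 using Sym2.ind with
    | _ a b =>
      intro h0
      have hab : a ≠ b := SimpleGraph.Adj.ne h0
      have : emb γ a ≠ emb γ b := fun h => hab (emb_inj hv h)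
      simpa using this

lemma GG_edgeFinset {K : SimpleGraph W} {F : SimpleGraph α} {γ : α → Option W} (hv : Val γ) :
    (GG K F γ).edgeFinset = GE K F γ := by
  ext e
  rw [SimpleGraph.mem_edgeFinset, GG, SimpleGraph.edgeSet_fromEdgeSet]
  constructor
  · intro h
    exact Finset.mem_coe.1 h.1
  · intro h
    exact ⟨Finset.mem_coe.2 h, GE_not_diag hv h⟩

/-- The edges of `F` that fall on old edges. -/
noncomputable def oe (K : SimpleGraph W) (F : SimpleGraph α) (γ : α → Option W) :
    Finset (Sym2 α) :=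
  F.edgeFinset.filter (fun f => Sym2.map γ f ∈ K.edgeFinset.image (Sym2.map some))

lemma mem_oe_pair {K : SimpleGraph W} {F : SimpleGraph α} {γ : α → Option W} {x y : α} :
    s(x, y) ∈ oe K F γ ↔ F.Adj x y ∧ ∃ u v, K.Adj u v ∧ γ x = some u ∧ γ y = some v := by
  unfold oe
  rw [mem_filter, SimpleGraph.mem_edgeFinset]
  simp only [SimpleGraph.mem_edgeSet, Sym2.map_mk, mem_image, SimpleGraph.mem_edgeFinset]
  constructor
  · rintro ⟨h1, e0, he0, h2⟩
    refine ⟨h1, ?_⟩
    revert he0 h2
    induction e0 using Sym2.ind with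
    | _ a b =>
      intro he0 h2
      simp only [Sym2.map_mk, Sym2.eq_iff] at h2
      rcases h2 with ⟨h3, h4⟩ | ⟨h3, h4⟩
      · exact ⟨a, b, he0, h3.symm, h4.symm⟩
      · exact ⟨b, a, SimpleGraph.Adj.symm he0, h4.symm, h3.symm⟩
  · rintro ⟨h1, u, v, huv, hx, hy⟩
    refine ⟨h1, s(u, v), huv, ?_⟩
    simp [hx, hy]

lemma GE_card_le (K : SimpleGraph W) (F : SimpleGraph α) (γ : α → Option W) :
    (GE K F γ).card ≤ K.edgeFinset.card + F.edgeFinset.card :=
  (Finset.card_union_le _ _).trans (add_le_add Finset.card_image_le Finset.card_image_le)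

lemma GE_card_ge {K : SimpleGraph W} {F : SimpleGraph α} {γ : α → Option W} (hv : Val γ) :
    K.edgeFinset.card + F.edgeFinset.card ≤ (GE K F γ).card + (oe K F γ).card := by
  set S1 := K.edgeFinset.image (Sym2.map (Sum.inl : W → GV γ)) with hS1
  set S2 := (F.edgeFinset \ oe K F γ).image (Sym2.map (emb γ)) with hS2
  have hc1 : S1.card = K.edgeFinset.card :=
    Finset.card_image_of_injective _ (Sym2.map.injective Sum.inl_injective)
  have hoe : oe K F γ ⊆ F.edgeFinset := Finset.filter_subset _ _
  have hc2 : S2.card + (oe K F γ).card = F.edgeFinset.card := by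
    rw [hS2, Finset.card_image_of_injective _ (Sym2.map.injective (emb_inj hv)),
      Finset.card_sdiff_of_subset hoe]
    have := Finset.card_le_card hoe
    omega
  have hdisj : Disjoint S1 S2 := by
    rw [Finset.disjoint_left]
    intro e he1 he2
    obtain ⟨e0, he0, rfl⟩ := mem_image.1 he1
    obtain ⟨f, hf, hf2⟩ := mem_image.1 he2
    obtain ⟨hf0, hf1⟩ := mem_sdiff.1 hf
    apply hf1
    have h0 := SimpleGraph.mem_edgeFinset.1 he0
    have h1 := SimpleGraph.mem_edgeFinset.1 hf0
    revert hf2 h0 h1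
    induction e0 using Sym2.ind with
    | _ u v =>
      induction f using Sym2.ind with
      | _ x y =>
        intro hf2 h0 h1
        simp only [Sym2.map_mk, Sym2.eq_iff] at hf2
        rw [mem_oe_pair]
        refine ⟨h1, ?_⟩
        rcases hf2 with ⟨h3, h4⟩ | ⟨h3, h4⟩
        · exact ⟨u, v, h0, emb_eq_inl h3, emb_eq_inl h4⟩
        · exact ⟨v, u, SimpleGraph.Adj.symm h0, emb_eq_inl h3, emb_eq_inl h4⟩
  have hsub : S1 ∪ S2 ⊆ GE K F γ := by
    apply Finset.union_subset_union (le_refl _)
    exact Finset.image_subset_image Finset.sdiff_subset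
  have := Finset.card_le_card hsub
  rw [Finset.card_union_of_disjoint hdisj] at this
  omega

lemma noIso_GG {K : SimpleGraph W} {F : SimpleGraph α} {γ : α → Option W} (hv : Val γ)
    (hK : NoIso K) (hF : NoIso F) : NoIso (GG K F γ) := by
  rintro (w | ⟨x, hx⟩)
  · obtain ⟨u, hu⟩ := hK w
    refine ⟨Sum.inl u, GG_adj.2 ⟨mem_union_left _ (mem_image.2 ⟨s(w, u),
      SimpleGraph.mem_edgeFinset.2 hu, by simp⟩), ?_⟩⟩
    simpa using SimpleGraph.Adj.ne hu
  · obtain ⟨y, hy⟩ := hF x
    refine ⟨emb γ y, GG_adj.2 ⟨mem_union_right _ (mem_image.2 ⟨s(x, y),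
      SimpleGraph.mem_edgeFinset.2 hy, by simp [emb_none hx]⟩), ?_⟩⟩
    intro h
    have h1 := emb_eq_inr h.symm
    exact SimpleGraph.Adj.ne hy h1

/-- Number of new vertices. -/
noncomputable def nn (γ : α → Option W) : ℕ := (univ.filter fun x => γ x = none).card

lemma card_GV (γ : α → Option W) : Fintype.card (GV γ) = Fintype.card W + nn γ := by
  rw [Fintype.card_sum, Fintype.card_subtype]
  rfl

lemma wt_GG_le {n : ℕ} {q : ℝ} (hq0 : 0 ≤ q) (hq1 : q ≤ 1) {K : SimpleGraph W}
    {F : SimpleGraph α} {γ : α → Option W} (hv : Val γ) :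
    wt n q (GG K F γ) ≤ wt n q K * ((n : ℝ) ^ nn γ * q ^ (F.edgeFinset.card - (oe K F γ).card)) := by
  unfold wt
  rw [card_GV, pow_add, GG_edgeFinset hv]
  have h1 := GE_card_ge (K := K) (F := F) hv
  have h00 : (oe K F γ).card ≤ F.edgeFinset.card := Finset.card_le_card (Finset.filter_subset _ _)
  have h2 : K.edgeFinset.card + (F.edgeFinset.card - (oe K F γ).card) ≤ (GE K F γ).card := by omega
  have h3 : q ^ (GE K F γ).card ≤ q ^ (K.edgeFinset.card + (F.edgeFinset.card - (oe K F γ).card)) :=
    pow_le_pow_of_le_one hq0 hq1 h2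
  rw [pow_add] at h3
  have hn : (0 : ℝ) ≤ (n : ℝ) ^ Fintype.card W * (n : ℝ) ^ nn γ := by positivity
  calc (n : ℝ) ^ Fintype.card W * (n : ℝ) ^ nn γ * q ^ (GE K F γ).card
      ≤ (n : ℝ) ^ Fintype.card W * (n : ℝ) ^ nn γ *
        (q ^ K.edgeFinset.card * q ^ (F.edgeFinset.card - (oe K F γ).card)) :=
        mul_le_mul_of_nonneg_left h3 hn
    _ = _ := by ring

/-- The gluing data of a pair. -/
noncomputable def gam (g : W → V) (φ : α → V) : α → Option W :=
  fun x => Function.partialInv g (φ x)

omit [Fintype V] [Fintype W] [Fintype α] in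
lemma gam_some {g : W → V} {φ : α → V} (hg : Function.Injective g) {x : α} {w : W} :
    gam g φ x = some w ↔ g w = φ x :=
  Function.partialInv_of_injective hg w (φ x)

omit [Fintype V] [Fintype W] [Fintype α] in
lemma gam_val {g : W → V} {φ : α → V} (hg : Function.Injective g) (hφ : Function.Injective φ) :
    Val (gam g φ) := by
  intro x y w hx hy
  apply hφ
  rw [← (gam_some hg).1 hx, ← (gam_some hg).1 hy]

/-- The induced map on the glued vertices. -/
noncomputable def gpr (g : W → V) (φ : α → V) (γ : α → Option W) : GV γ → V :=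
  Sum.elim g (fun x => φ x.1)

omit [Fintype V] [Fintype W] [Fintype α] in
lemma gpr_emb {g : W → V} {φ : α → V} (hg : Function.Injective g) (x : α) :
    gpr g φ (gam g φ) (emb (gam g φ) x) = φ x := by
  rcases hx : gam g φ x with _ | w
  · rw [emb_none hx]
    rfl
  · rw [emb_some hx]
    exact (gam_some hg).1 hx

lemma gpr_mem {H : SimpleGraph V} {K : SimpleGraph W} {F : SimpleGraph α} {g : W → V} {φ : α → V}
    (hg : g ∈ Om H K) (hφ : φ ∈ Om H F) :
    gpr g φ (gam g φ) ∈ Om H (GG K F (gam g φ)) := by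
  obtain ⟨hg1, hg2⟩ := mem_Om.1 hg
  obtain ⟨hφ1, hφ2⟩ := mem_Om.1 hφ
  refine mem_Om.2 ⟨?_, ?_⟩
  · rintro (a | ⟨a, ha⟩) (b | ⟨b, hb⟩) hab
    · have : a = b := hg1 hab
      rw [this]
    · exfalso
      have h1 : g a = φ b := hab
      have h2 := (gam_some hg1).2 h1
      rw [hb] at h2
      simp at h2
    · exfalso
      have h1 : g b = φ a := hab.symm
      have h2 := (gam_some hg1).2 h1
      rw [ha] at h2
      simp at h2
    · have h1 : φ a = φ b := hab
      have := hφ1 h1
      subst this
      rfl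
  · intro a b hab
    obtain ⟨h1, _⟩ := GG_adj.1 hab
    have hmap : ∀ e ∈ GE K F (gam g φ), Sym2.map (gpr g φ (gam g φ)) e ∈ H.edgeSet := by
      intro e he
      rcases mem_union.1 he with h | h
      · obtain ⟨e0, he0, rfl⟩ := mem_image.1 h
        have h0 := SimpleGraph.mem_edgeFinset.1 he0
        revert h0
        induction e0 using Sym2.ind with
        | _ u v =>
          intro h0
          exact hg2 u v h0
      · obtain ⟨e0, he0, rfl⟩ := mem_image.1 h
        have h0 := SimpleGraph.mem_edgeFinset.1 he0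
        revert h0
        induction e0 using Sym2.ind with
        | _ u v =>
          intro h0
          simp only [Sym2.map_mk, SimpleGraph.mem_edgeSet]
          rw [gpr_emb hg1, gpr_emb hg1]
          exact hφ2 u v h0
    exact hmap _ h1

end Vale.Agent.Lib.P064F
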