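import Vale.Agent.Lib.P064F.Pair

open Finset
open scoped Classical

namespace Vale.Agent.Lib.P064F

open Vale.Agent.Lib.P064

variable {V : Type} [Fintype V]

lemma alg_id (L q m : ℝ) (v k : ℕ) : L ^ k * (m ^ v * q ^ k * L ^ k) = m ^ v * (L ^ 2 * q) ^ k := by
  rw [mul_pow, ← pow_mul, two_mul, pow_add]
  ring

/-- The chain of glued graphs. -/
lemma chain_glue {α : Type} [Fintype α] {H : SimpleGraph V} {F : SimpleGraph α} {n : ℕ} {q Lam0 : ℝ}
    {Lam : ℕ} (hn : 0 < n) (hV : Fintype.card V ≤ n) (hq : 0 < q) (hq1 : q ≤ 1) (hL : 1 ≤ Lam0)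
    (v0 : V) (hFlat : Flat H Lam) (hF : NoIso F) (he : 1 ≤ F.edgeFinset.card)
    (hIH : ∀ E : Finset (Sym2 α), E ⊆ F.edgeFinset → 2 * E.card ≤ F.edgeFinset.card →
      ((Om H (subG E)).card : ℝ) ≤ (n : ℝ) ^ (sup E).card * (Lam0 ^ 2 * q) ^ E.card)
    (hFne : (Om H F).Nonempty) (M : ℕ)
    (hM : 4 * Lam * ((M - 1) * F.edgeFinset.card) ≤ H.edgeFinset.card) :
    ∀ i, i ≤ M → ∃ (W : Type) (_ : Fintype W) (K : SimpleGraph W), NoIso K ∧
      K.edgeFinset.card ≤ i * F.edgeFinset.card ∧
      (((Om H F).card : ℝ) / (2 * BB n q Lam0 (Fintype.card α) F.edgeFinset.card)) ^ i * wt n q K ≤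
        (Om H K).card := by
  set B := BB n q Lam0 (Fintype.card α) F.edgeFinset.card with hB
  have hL0 : (0 : ℝ) < Lam0 := by linarith
  have hBpos : 0 < B := BB_pos hn hq hL0 _ _
  have hνpos : (0 : ℝ) < (Om H F).card := by exact_mod_cast Finset.card_pos.2 hFne
  set T := ((Om H F).card : ℝ) / (2 * B) with hT
  have hTpos : 0 < T := by positivity
  intro i
  induction i with
  | zero =>
    intro _
    refine ⟨Empty, inferInstance, ⊥, fun x => x.elim, ?_, ?_⟩
    · simp
    · have h1 : Empty.elim ∈ Om H (⊥ : SimpleGraph Empty) := by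
        refine mem_Om.2 ⟨fun x => x.elim, fun x => x.elim⟩
      have h2 : 1 ≤ (Om H (⊥ : SimpleGraph Empty)).card := Finset.card_pos.2 ⟨_, h1⟩
      have h3 : (1 : ℝ) ≤ (Om H (⊥ : SimpleGraph Empty)).card := by exact_mod_cast h2
      have h4 : wt n q (⊥ : SimpleGraph Empty) = 1 := by
        unfold wt
        have h5 : ∀ inst : Fintype (⊥ : SimpleGraph Empty).edgeSet,
            (@SimpleGraph.edgeFinset _ ⊥ inst).card = 0 := by
          intro inst
          rw [Finset.card_eq_zero]
          ext e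
          induction e using Sym2.ind with
          | _ a b => exact a.elim
        rw [h5]
        simp
      rw [h4, pow_zero, one_mul]
      exact h3
  | succ i ih =>
    intro hi
    obtain ⟨W, _, K, hK, hKe, hKT⟩ := ih (by omega)
    have hwK : 0 < wt n q K := wt_pos hn hq K
    have hX : (Om H K).Nonempty := by
      have : (0 : ℝ) < (Om H K).card := lt_of_lt_of_le (by positivity) hKT
      exact Finset.card_pos.1 (by exact_mod_cast this)
    have hsize : 4 * Lam * K.edgeFinset.card ≤ H.edgeFinset.card := by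
      refine le_trans ?_ hM
      apply Nat.mul_le_mul_left
      refine hKe.trans (Nat.mul_le_mul_right _ (by omega))
    obtain ⟨γ, hv, hγ⟩ := step hn hV hq hq1 hL v0 hIH hX hFne
      (fun g hg => good_large hFlat hF he hg hsize)
    refine ⟨GV γ, inferInstance, GG K F γ, noIso_GG hv hK hF, ?_, ?_⟩
    · rw [GG_edgeFinset hv]
      have := GE_card_le K F γ
      rw [Nat.succ_mul]
      omega
    · rw [← hB] at hγ
      have hwK' : 0 ≤ wt n q (GG K F γ) := (wt_pos hn hq _).le
      have h1 : T ^ i * wt n q K * (Om H F).card * wt n q (GG K F γ) ≤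
          2 * B * wt n q K * (Om H (GG K F γ)).card := by
        refine le_trans ?_ hγ
        apply mul_le_mul_of_nonneg_right _ hwK'
        apply mul_le_mul_of_nonneg_right hKT hνpos.le
      have h2 : T * (2 * B) = (Om H F).card := by
        rw [hT]
        field_simp
      have h3 : (2 * B * wt n q K) * (T ^ (i + 1) * wt n q (GG K F γ)) ≤
          (2 * B * wt n q K) * (Om H (GG K F γ)).card := by
        calc (2 * B * wt n q K) * (T ^ (i + 1) * wt n q (GG K F γ))
            = T ^ i * wt n q K * (T * (2 * B)) * wt n q (GG K F γ) := by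
              rw [pow_succ]; ring
          _ = T ^ i * wt n q K * (Om H F).card * wt n q (GG K F γ) := by rw [h2]
          _ ≤ _ := h1
      exact le_of_mul_le_mul_left h3 (by positivity)

lemma card_le_two_edges {α : Type} [Fintype α] {F : SimpleGraph α} (hF : NoIso F) :
    Fintype.card α ≤ 2 * F.edgeFinset.card := by
  have h1 : (univ : Finset α) = suppF F := by
    ext x
    simp only [mem_univ, true_iff]
    obtain ⟨y, hy⟩ := hF x
    exact mem_biUnion.2 ⟨s(x, y), SimpleGraph.mem_edgeFinset.2 hy, by simp⟩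
  rw [← Finset.card_univ, h1]
  exact card_suppF_le F

/-- The main bound for graphs without isolated vertices. -/
theorem main_noiso {H : SimpleGraph V} {n : ℕ} {q : ℝ} {Lam : ℕ} (hn : 0 < n)
    (hV : Fintype.card V ≤ n) (hq : 0 < q) (hq1 : q ≤ 1) (hK : HypK H n q) (hFlat : Flat H Lam)
    (hLam : 1 ≤ Lam) :
    ∀ (k : ℕ) (α : Type) [Fintype α] (F : SimpleGraph α), F.edgeFinset.card = k → NoIso F →
      ((Om H F).card : ℝ) ≤ (n : ℝ) ^ Fintype.card α *
        (((2 : ℝ) ^ (5 + 8 * Lam)) ^ 2 * q) ^ k := by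
  intro k
  induction k using Nat.strong_induction_on with
  | _ k ih =>
    intro α _ F hk hF
    set Lam0 : ℝ := (2 : ℝ) ^ (5 + 8 * Lam) with hLam0
    have hn0 : (0 : ℝ) < n := by exact_mod_cast hn
    have hL : 1 ≤ Lam0 := one_le_pow₀ (by norm_num)
    have hL0 : 0 < Lam0 := by linarith
    have hrhs : 0 ≤ (n : ℝ) ^ Fintype.card α * (Lam0 ^ 2 * q) ^ k := by positivity
    by_cases hFne : (Om H F).Nonempty
    swap
    · rw [Finset.not_nonempty_iff_eq_empty] at hFne
      rw [hFne]
      simpa using hrhs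
    rcases Nat.eq_zero_or_pos k with hk0 | hkpos
    · -- no edges
      subst hk0
      have hemp : IsEmpty α := by
        constructor
        intro x
        obtain ⟨y, hy⟩ := hF x
        have : s(x, y) ∈ F.edgeFinset := SimpleGraph.mem_edgeFinset.2 hy
        rw [Finset.card_eq_zero.1 hk] at this
        simp at this
      have h1 : (Om H F).card ≤ 1 := by
        apply Finset.card_le_one.2
        intro a _ b _
        funext x
        exact (hemp.false x).elim
      have h2 : ((Om H F).card : ℝ) ≤ 1 := by exact_mod_cast h1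
      simpa using h2
    obtain ⟨φ0, hφ0⟩ := hFne
    have hne0 : (Om H F).Nonempty := ⟨φ0, hφ0⟩
    obtain ⟨x0⟩ : Nonempty α := by
      by_contra hcon
      rw [not_nonempty_iff] at hcon
      have : F.edgeFinset = ∅ := by
        ext e
        simp only [SimpleGraph.mem_edgeFinset, notMem_empty, iff_false]
        induction e using Sym2.ind with
        | _ a b => exact (hcon.false a).elim
      rw [this] at hk
      simp at hk
      omega
    have v0 : V := φ0 x0
    have hIH : ∀ E : Finset (Sym2 α), E ⊆ F.edgeFinset → 2 * E.card ≤ F.edgeFinset.card →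
        ((Om H (subG E)).card : ℝ) ≤ (n : ℝ) ^ (sup E).card * (Lam0 ^ 2 * q) ^ E.card := by
      intro E hE h2
      have hlt : E.card < k := by omega
      have := ih E.card hlt ↥(sup E) (subG E) (subG_edges hE) (subG_noIso hE)
      rwa [Fintype.card_coe] at this
    set eH := H.edgeFinset.card with heH
    set v := Fintype.card α with hv
    set D := 4 * Lam * k with hD
    have hDpos : 0 < D := by
      rw [hD]
      positivity
    -- the number of copies
    obtain ⟨M, hM1, hM2, hM3⟩ : ∃ M : ℕ, 1 ≤ M ∧ (M - 1) * D ≤ eH ∧ eH ≤ 2 * M * D := by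
      by_cases hcase : eH < D
      · refine ⟨1, le_rfl, by simp, by omega⟩
      · refine ⟨eH / D, ?_, ?_, ?_⟩
        · exact Nat.div_pos (by omega) hDpos
        · calc (eH / D - 1) * D ≤ eH / D * D := Nat.mul_le_mul_right _ (Nat.sub_le _ _)
            _ ≤ eH := Nat.div_mul_le_self _ _
        · have h1 : eH < D * (eH / D + 1) := Nat.lt_mul_div_succ _ hDpos
          have h2 : 1 ≤ eH / D := Nat.div_pos (by omega) hDpos
          calc eH ≤ D * (eH / D + 1) := h1.le
            _ ≤ D * (2 * (eH / D)) := Nat.mul_le_mul_left _ (by omega)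
            _ = _ := by ring
    have hM' : 4 * Lam * ((M - 1) * F.edgeFinset.card) ≤ H.edgeFinset.card := by
      rw [hk]
      calc 4 * Lam * ((M - 1) * k) = (M - 1) * D := by rw [hD]; ring
        _ ≤ eH := hM2
    obtain ⟨W, _, K, hKn, _, hKT⟩ := chain_glue hn hV hq hq1 hL v0 hFlat hF (by omega) hIH hne0 M hM'
      M le_rfl
    rw [hk] at hKT
    set B := BB n q Lam0 v k with hB
    have hBpos : 0 < B := BB_pos hn hq hL0 _ _
    have hνpos : (0 : ℝ) < (Om H F).card := by exact_mod_cast Finset.card_pos.2 hne0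
    set T := ((Om H F).card : ℝ) / (2 * B) with hT
    have hTpos : 0 < T := by positivity
    have hend := card_Om_le_wt hq.le hK hKn (H := H)
    have hwK : 0 < wt n q K := wt_pos hn hq K
    have h1 : T ^ M ≤ 2 ^ (eH + 1) := by
      have := hKT.trans hend
      exact le_of_mul_le_mul_right this hwK
    have h2 : (2 : ℝ) ^ (eH + 1) ≤ ((2 : ℝ) ^ (8 * Lam * k + 1)) ^ M := by
      rw [← pow_mul]
      apply pow_le_pow_right₀ (by norm_num)
      have : eH ≤ 8 * Lam * k * M := by
        calc eH ≤ 2 * M * D := hM3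
          _ = _ := by rw [hD]; ring
      calc eH + 1 ≤ 8 * Lam * k * M + M := by omega
        _ = _ := by ring
    have h3 : T ≤ (2 : ℝ) ^ (8 * Lam * k + 1) :=
      (pow_le_pow_iff_left₀ hTpos.le (by positivity) (by omega)).1 (h1.trans h2)
    have h4 : ((Om H F).card : ℝ) ≤ (2 : ℝ) ^ (8 * Lam * k + 1) * (2 * B) := by
      rw [hT, div_le_iff₀ (by positivity)] at h3
      exact h3
    have hv2 : v ≤ 2 * k := by
      have := card_le_two_edges hF
      rw [hk] at this
      exact this
    refine h4.trans ?_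
    have h5 : (2 : ℝ) ^ (8 * Lam * k + 1) * (2 * (2 ^ k * 2 ^ v)) ≤ Lam0 ^ k := by
      rw [hLam0, ← pow_mul]
      have e1 : (2 : ℝ) ^ (8 * Lam * k + 1) * (2 * (2 ^ k * 2 ^ v)) =
          (2 : ℝ) ^ (8 * Lam * k + 1 + (1 + (k + v))) := by
        rw [pow_add (2 : ℝ) (8 * Lam * k + 1), pow_add (2 : ℝ) 1, pow_add (2 : ℝ) k v]
        ring
      rw [e1]
      apply pow_le_pow_right₀ (by norm_num)
      have e2 : (5 + 8 * Lam) * k = 5 * k + 8 * Lam * k := by ring
      rw [e2]
      omega
    have hnq : 0 ≤ (n : ℝ) ^ v * q ^ k * Lam0 ^ k := by positivity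
    calc (2 : ℝ) ^ (8 * Lam * k + 1) * (2 * B)
        = ((2 : ℝ) ^ (8 * Lam * k + 1) * (2 * (2 ^ k * 2 ^ v))) * ((n : ℝ) ^ v * q ^ k * Lam0 ^ k) := by
          rw [hB]; unfold BB; ring
      _ ≤ Lam0 ^ k * ((n : ℝ) ^ v * q ^ k * Lam0 ^ k) := mul_le_mul_of_nonneg_right h5 hnq
      _ = (n : ℝ) ^ v * (Lam0 ^ 2 * q) ^ k := alg_id _ _ _ _ _

end Vale.Agent.Lib.P064F
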