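import Vale.Agent.Lib.P064F.Step

open Finset
open scoped Classical

namespace Vale.Agent.Lib.P064F

open Vale.Agent.Lib.P064

variable {V : Type} [Fintype V] {W α : Type} [Fintype W] [Fintype α]

/-- The copies of `F` which overlap the image of `K` in at most half of their edges. -/
noncomputable def good (H : SimpleGraph V) (K : SimpleGraph W) (F : SimpleGraph α) (g : W → V) :
    Finset (α → V) :=
  (Om H F).filter fun φ => 2 * (oe K F (gam g φ)).card ≤ F.edgeFinset.card

/-- One gluing step. -/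
lemma step {H : SimpleGraph V} {K : SimpleGraph W} {F : SimpleGraph α} {n : ℕ} {q Lam0 : ℝ}
    (hn : 0 < n) (hV : Fintype.card V ≤ n) (hq : 0 < q) (hq1 : q ≤ 1) (hL : 1 ≤ Lam0) (v0 : V)
    (hIH : ∀ E : Finset (Sym2 α), E ⊆ F.edgeFinset → 2 * E.card ≤ F.edgeFinset.card →
      ((Om H (subG E)).card : ℝ) ≤ (n : ℝ) ^ (sup E).card * (Lam0 ^ 2 * q) ^ E.card)
    (hX : (Om H K).Nonempty) (hFne : (Om H F).Nonempty)
    (hgood : ∀ g ∈ Om H K, (Om H F).card ≤ 2 * (good H K F g).card) :
    ∃ γ : α → Option W, Val γ ∧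
      ((Om H K).card : ℝ) * (Om H F).card * wt n q (GG K F γ) ≤
        2 * BB n q Lam0 (Fintype.card α) F.edgeFinset.card * wt n q K *
          (Om H (GG K F γ)).card := by
  by_contra hcon
  push Not at hcon
  obtain ⟨g0, hg0⟩ := hX
  set B := BB n q Lam0 (Fintype.card α) F.edgeFinset.card with hB
  have hL0 : (0 : ℝ) < Lam0 := by linarith
  have hBpos : 0 < B := BB_pos hn hq hL0 _ _
  have hwK : 0 < wt n q K := wt_pos hn hq K
  have hW : Fintype.card W ≤ n :=
    (Fintype.card_le_of_injective g0 (mem_Om.1 hg0).1).trans hV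
  set P := ((Om H K) ×ˢ (Om H F)).filter
    (fun p => 2 * (oe K F (gam p.1 p.2)).card ≤ F.edgeFinset.card) with hP
  let gm : (W → V) × (α → V) → (α → Option W) := fun p => gam p.1 p.2
  set Γ := P.image gm with hΓ
  have hPmem : ∀ p ∈ P, p.1 ∈ Om H K ∧ p.2 ∈ Om H F ∧
      2 * (oe K F (gam p.1 p.2)).card ≤ F.edgeFinset.card := by
    intro p hp
    obtain ⟨h1, h2⟩ := mem_filter.1 hp
    obtain ⟨h3, h4⟩ := mem_product.1 h1
    exact ⟨h3, h4, h2⟩
  have hΓval : ∀ γ ∈ Γ, Val γ ∧ 2 * (oe K F γ).card ≤ F.edgeFinset.card := by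
    intro γ hγ
    obtain ⟨p, hp, rfl⟩ := mem_image.1 hγ
    obtain ⟨h1, h2, h3⟩ := hPmem p hp
    exact ⟨gam_val (mem_Om.1 h1).1 (mem_Om.1 h2).1, h3⟩
  -- counting pairs from below
  have hPcard : (Om H K).card * (Om H F).card ≤ 2 * P.card := by
    have h1 : P.card = ∑ g ∈ Om H K, (good H K F g).card := by
      rw [hP, Finset.card_filter, Finset.sum_product]
      apply Finset.sum_congr rfl
      intro g _
      rw [good, Finset.card_filter]
    rw [h1, Finset.mul_sum]
    calc (Om H K).card * (Om H F).card = ∑ _g ∈ Om H K, (Om H F).card := by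
          rw [Finset.sum_const, smul_eq_mul]
      _ ≤ _ := Finset.sum_le_sum hgood
  -- counting pairs from above
  have hPup : P.card ≤ ∑ γ ∈ Γ, (Om H (GG K F γ)).card := by
    rw [Finset.card_eq_sum_card_image gm P]
    apply Finset.sum_le_sum
    intro γ hγ
    apply Finset.card_le_card_of_injOn (fun p => gpr p.1 p.2 γ)
    · intro p hp
      have hp' := Finset.mem_coe.1 hp
      obtain ⟨hp1, hp2⟩ := mem_filter.1 hp'
      obtain ⟨h1, h2, _⟩ := hPmem p hp1
      have hpr := gpr_mem h1 h2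
      have : gam p.1 p.2 = γ := hp2
      subst this
      exact hpr
    · intro p hp p' hp' hpp
      have hpp' : gpr p.1 p.2 γ = gpr p'.1 p'.2 γ := hpp
      have hp0 := Finset.mem_coe.1 hp
      have hp0' := Finset.mem_coe.1 hp'
      obtain ⟨hp1, hp2⟩ := mem_filter.1 hp0
      obtain ⟨hp1', hp2'⟩ := mem_filter.1 hp0'
      obtain ⟨h1, h2, _⟩ := hPmem p hp1
      obtain ⟨h1', h2', _⟩ := hPmem p' hp1'
      have hg1 := (mem_Om.1 h1).1
      have hg1' := (mem_Om.1 h1').1
      have hgg : p.1 = p'.1 := by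
        funext w
        exact congrFun hpp' (Sum.inl w)
      have hφφ : p.2 = p'.2 := by
        funext x
        rcases hx : γ x with _ | w
        · exact congrFun hpp' (Sum.inr ⟨x, hx⟩)
        · have e1 : gam p.1 p.2 x = some w := by
            have : gam p.1 p.2 = γ := hp2
            rw [this]; exact hx
          have e2 : gam p'.1 p'.2 x = some w := by
            have : gam p'.1 p'.2 = γ := hp2'
            rw [this]; exact hx
          rw [← (gam_some hg1).1 e1, ← (gam_some hg1').1 e2, hgg]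
      exact Prod.ext hgg hφφ
  -- total weight
  have hweight : ∑ γ ∈ Γ, wt n q (GG K F γ) ≤ wt n q K * B := by
    have h1 := gamma_total hq hL hW hg0 v0 hIH Γ hΓval
    calc ∑ γ ∈ Γ, wt n q (GG K F γ)
        ≤ ∑ γ ∈ Γ, wt n q K * ((n : ℝ) ^ nn γ * q ^ (F.edgeFinset.card - (oe K F γ).card)) :=
          Finset.sum_le_sum (fun γ hγ => wt_GG_le hq.le hq1 (hΓval γ hγ).1)
      _ = wt n q K * ∑ γ ∈ Γ, ((n : ℝ) ^ nn γ * q ^ (F.edgeFinset.card - (oe K F γ).card)) := by
          rw [Finset.mul_sum]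
      _ ≤ wt n q K * B := mul_le_mul_of_nonneg_left h1 hwK.le
  -- nonempty
  have hPpos : 0 < P.card := by
    have h1 : 0 < (Om H K).card := Finset.card_pos.2 ⟨g0, hg0⟩
    have h2 : 0 < (Om H F).card := Finset.card_pos.2 hFne
    have h3 := Nat.mul_pos h1 h2
    omega
  have hΓne : Γ.Nonempty := by
    rw [hΓ, Finset.image_nonempty]
    exact Finset.card_pos.1 hPpos
  -- contradiction
  have hlt : ∑ γ ∈ Γ, (2 * B * wt n q K * ((Om H (GG K F γ)).card : ℝ)) <
      ∑ γ ∈ Γ, (((Om H K).card : ℝ) * (Om H F).card * wt n q (GG K F γ)) :=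
    Finset.sum_lt_sum_of_nonempty hΓne (fun γ hγ => hcon γ (hΓval γ hγ).1)
  rw [← Finset.mul_sum, ← Finset.mul_sum] at hlt
  have hXν : (0 : ℝ) ≤ ((Om H K).card : ℝ) * (Om H F).card := by positivity
  have h1 : ((Om H K).card : ℝ) * (Om H F).card * ∑ γ ∈ Γ, wt n q (GG K F γ) ≤
      ((Om H K).card : ℝ) * (Om H F).card * (wt n q K * B) :=
    mul_le_mul_of_nonneg_left hweight hXν
  have h2 : ((Om H K).card : ℝ) * (Om H F).card ≤
      2 * ∑ γ ∈ Γ, ((Om H (GG K F γ)).card : ℝ) := by
    have : (Om H K).card * (Om H F).card ≤ 2 * ∑ γ ∈ Γ, (Om H (GG K F γ)).card :=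
      hPcard.trans (Nat.mul_le_mul_left 2 hPup)
    exact_mod_cast this
  have hBw : 0 < wt n q K * B := mul_pos hwK hBpos
  have h3 : 2 * B * wt n q K * ∑ γ ∈ Γ, ((Om H (GG K F γ)).card : ℝ) =
      (wt n q K * B) * (2 * ∑ γ ∈ Γ, ((Om H (GG K F γ)).card : ℝ)) := by ring
  have h4 : ((Om H K).card : ℝ) * (Om H F).card * (wt n q K * B) =
      (wt n q K * B) * (((Om H K).card : ℝ) * (Om H F).card) := by ring
  rw [h3] at hlt
  have h5 : (wt n q K * B) * (2 * ∑ γ ∈ Γ, ((Om H (GG K F γ)).card : ℝ)) <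
      (wt n q K * B) * (((Om H K).card : ℝ) * (Om H F).card) := by
    calc _ < _ := hlt
      _ ≤ _ := h1
      _ = _ := h4
  have h6 := lt_of_mul_lt_mul_left h5 hBw.le
  linarith

/-- Markov: at least half of the copies are good. -/
lemma good_large {H : SimpleGraph V} {K : SimpleGraph W} {F : SimpleGraph α} {Lam : ℕ}
    (hFlat : Flat H Lam) (hF : NoIso F) (he : 1 ≤ F.edgeFinset.card) {g : W → V} (hg : g ∈ Om H K)
    (hsize : 4 * Lam * K.edgeFinset.card ≤ H.edgeFinset.card) :
    (Om H F).card ≤ 2 * (good H K F g).card := by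
  by_cases hν : (Om H F).Nonempty
  swap
  · rw [Finset.not_nonempty_iff_eq_empty] at hν
    rw [hν]
    simp
  obtain ⟨φ0, hφ0⟩ := hν
  set e := F.edgeFinset.card with hedef
  set eH := H.edgeFinset.card with heH
  set ν := (Om H F).card with hνdef
  have heHpos : 0 < eH := by
    have h1 := Finset.card_le_card (eimg_sub hφ0)
    rw [card_eimg (mem_Om.1 hφ0).1] at h1
    omega
  have hg1 := (mem_Om.1 hg).1
  set A := eimg K g with hA
  have hAcard : A.card = K.edgeFinset.card := card_eimg hg1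
  let O : (α → V) → Finset (Sym2 V) :=
    fun φ => A.filter fun h => h ∈ F.edgeFinset.image (Sym2.map φ)
  have hoO : ∀ φ ∈ Om H F, (oe K F (gam g φ)).card ≤ (O φ).card := by
    intro φ hφ
    have hφ1 := (mem_Om.1 hφ).1
    apply Finset.card_le_card_of_injOn (Sym2.map φ)
    · intro f hf
      have hf' := Finset.mem_coe.1 hf
      have hfE : f ∈ F.edgeFinset := (mem_filter.1 hf').1
      refine Finset.mem_coe.2 (mem_filter.2 ⟨?_, mem_image.2 ⟨f, hfE, rfl⟩⟩)
      revert hf'
      induction f using Sym2.ind with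
      | _ x y =>
        intro hf'
        obtain ⟨_, u, v, huv, hx, hy⟩ := mem_oe_pair.1 hf'
        refine mem_image.2 ⟨s(u, v), SimpleGraph.mem_edgeFinset.2 huv, ?_⟩
        simp [(gam_some hg1).1 hx, (gam_some hg1).1 hy]
    · exact (Sym2.map.injective hφ1).injOn
  have hdouble : ∑ φ ∈ Om H F, (O φ).card = ∑ h ∈ A, useCount H F h := by
    simp only [O, useCount, Finset.card_filter]
    rw [Finset.sum_comm]
  have hflat : eH * ∑ φ ∈ Om H F, (O φ).card ≤ A.card * (Lam * ν * e) := by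
    rw [hdouble, Finset.mul_sum]
    calc ∑ h ∈ A, eH * useCount H F h ≤ ∑ _h ∈ A, (Lam * ν * e) :=
          Finset.sum_le_sum (fun h hh => hFlat α F hF h (eimg_sub hg hh))
      _ = _ := by rw [Finset.sum_const, smul_eq_mul]
  set Bad := (Om H F).filter fun φ => ¬ (2 * (oe K F (gam g φ)).card ≤ e) with hBad
  have hsum : Bad.card * e ≤ 2 * ∑ φ ∈ Om H F, (O φ).card := by
    have h1 : Bad.card • e ≤ ∑ φ ∈ Bad, 2 * (O φ).card := by
      apply Finset.card_nsmul_le_sum
      intro φ hφ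
      obtain ⟨h2, h3⟩ := mem_filter.1 hφ
      have h4 := hoO φ h2
      omega
    rw [smul_eq_mul] at h1
    rw [Finset.mul_sum]
    exact h1.trans (Finset.sum_le_sum_of_subset (Finset.filter_subset _ _))
  have h5 : (eH * Bad.card) * e ≤ (2 * A.card * Lam * ν) * e := by
    calc (eH * Bad.card) * e = eH * (Bad.card * e) := by ring
      _ ≤ eH * (2 * ∑ φ ∈ Om H F, (O φ).card) := Nat.mul_le_mul_left _ hsum
      _ = 2 * (eH * ∑ φ ∈ Om H F, (O φ).card) := by ring
      _ ≤ 2 * (A.card * (Lam * ν * e)) := Nat.mul_le_mul_left _ hflat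
      _ = _ := by ring
  have h6 : eH * Bad.card ≤ 2 * A.card * Lam * ν := Nat.le_of_mul_le_mul_right h5 (by omega)
  have h7 : eH * (2 * Bad.card) ≤ eH * ν := by
    calc eH * (2 * Bad.card) = 2 * (eH * Bad.card) := by ring
      _ ≤ 2 * (2 * A.card * Lam * ν) := Nat.mul_le_mul_left _ h6
      _ = (4 * Lam * A.card) * ν := by ring
      _ ≤ eH * ν := by
          apply Nat.mul_le_mul_right
          rw [hAcard]
          exact hsize
  have h8 : 2 * Bad.card ≤ ν := Nat.le_of_mul_le_mul_left h7 heHpos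
  have h9 : (good H K F g).card + Bad.card = ν := by
    rw [good, hBad, hνdef]
    exact Finset.card_filter_add_card_filter_not _
  omega

end Vale.Agent.Lib.P064F
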