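import Vale.Agent.Lib.P064F.Glue

open Finset
open scoped Classical

namespace Vale.Agent.Lib.P064F

open Vale.Agent.Lib.P064

variable {V : Type} [Fintype V] {W α : Type} [Fintype W] [Fintype α]

/-- The vertices touched by a set of edges. -/
noncomputable def sup (E : Finset (Sym2 α)) : Finset α := E.biUnion (fun e => e.toFinset)

omit [Fintype α] in
lemma mem_sup_of {E : Finset (Sym2 α)} {e : Sym2 α} (he : e ∈ E) {x : α} (hx : x ∈ e) :
    x ∈ sup E :=
  mem_biUnion.2 ⟨e, he, Sym2.mem_toFinset.2 hx⟩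

/-- The graph formed by a set of edges, on its support. -/
def subG (E : Finset (Sym2 α)) : SimpleGraph ↥(sup E) where
  Adj a b := a ≠ b ∧ s(a.1, b.1) ∈ E
  symm := ⟨fun a b h => ⟨h.1.symm, by rw [Sym2.eq_swap]; exact h.2⟩⟩
  loopless := ⟨fun a h => h.1 rfl⟩

lemma subG_edges {F : SimpleGraph α} {E : Finset (Sym2 α)} (hE : E ⊆ F.edgeFinset) :
    (subG E).edgeFinset.card = E.card := by
  have himg : E = (subG E).edgeFinset.image (Sym2.map Subtype.val) := by
    ext e
    simp only [mem_image, SimpleGraph.mem_edgeFinset]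
    constructor
    · intro he
      have hmem : ∀ x ∈ e, x ∈ sup E := fun x hx => mem_sup_of he hx
      have hF := SimpleGraph.mem_edgeFinset.1 (hE he)
      revert he hmem hF
      induction e using Sym2.ind with
      | _ a b =>
        intro he hmem hF
        refine ⟨s(⟨a, hmem a (by simp)⟩, ⟨b, hmem b (by simp)⟩), ⟨?_, he⟩, rfl⟩
        intro h
        exact (SimpleGraph.Adj.ne hF) (congrArg Subtype.val h)
    · rintro ⟨e0, he0, rfl⟩
      revert he0
      induction e0 using Sym2.ind with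
      | _ a b =>
        intro he0
        exact he0.2
  conv_rhs => rw [himg]
  rw [Finset.card_image_of_injective _ (Sym2.map.injective Subtype.val_injective)]

lemma subG_noIso {F : SimpleGraph α} {E : Finset (Sym2 α)} (hE : E ⊆ F.edgeFinset) :
    NoIso (subG E) := by
  rintro ⟨a, ha⟩
  obtain ⟨e, he, hae⟩ := mem_biUnion.1 ha
  have hae' := Sym2.mem_toFinset.1 hae
  have hF := SimpleGraph.mem_edgeFinset.1 (hE he)
  revert he hae' hF
  induction e using Sym2.ind with
  | _ x y =>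
    intro he hae' hF
    rcases Sym2.mem_iff.1 hae' with rfl | rfl
    · refine ⟨⟨y, mem_sup_of he (by simp)⟩, ?_, he⟩
      intro h
      exact (SimpleGraph.Adj.ne hF) (congrArg Subtype.val h)
    · refine ⟨⟨x, mem_sup_of he (by simp)⟩, ?_, ?_⟩
      · intro h
        exact (SimpleGraph.Adj.ne hF) (congrArg Subtype.val h).symm
      · simp only
        rw [Sym2.eq_swap]
        exact he

/-- The sum over the free part. -/
lemma sum_none {β : Type} [Fintype β] (t : ℝ) :
    ∑ γ : β → Option W, t ^ (univ.filter fun b => γ b = none).card =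
      (t + Fintype.card W) ^ Fintype.card β := by
  have h1 : ∀ γ : β → Option W, t ^ (univ.filter fun b => γ b = none).card =
      ∏ b, (if γ b = none then t else 1) := by
    intro γ
    rw [Finset.prod_ite]
    simp
  simp_rw [h1]
  have h2 := Finset.prod_univ_sum (fun _ : β => (univ : Finset (Option W)))
    (fun _ o => if o = none then t else (1 : ℝ))
  rw [Fintype.piFinset_univ] at h2
  rw [← h2, Finset.prod_const, card_univ]
  congr 1
  rw [Fintype.sum_option]
  simp

lemma sum_none1 {β : Type} [Fintype β] (i : Fintype (β → Option W)) (t : ℝ) :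
    ∑ γ ∈ @univ _ i, t ^ (univ.filter fun b => γ b = none).card =
      (t + Fintype.card W) ^ Fintype.card β := by
  have h : i = Pi.instFintype := Subsingleton.elim _ _
  subst h
  exact sum_none t

lemma exists_some_of_mem {K : SimpleGraph W} {F : SimpleGraph α} {γ : α → Option W}
    {e : Sym2 α} (he : e ∈ oe K F γ) {a : α} (ha : a ∈ e) : ∃ w, γ a = some w := by
  revert he ha
  induction e using Sym2.ind with
  | _ x y =>
    intro he ha
    obtain ⟨_, u, v, _, hx, hy⟩ := mem_oe_pair.1 he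
    rcases Sym2.mem_iff.1 ha with rfl | rfl
    · exact ⟨u, hx⟩
    · exact ⟨v, hy⟩

/-- The fiber sum. -/
lemma fiber_sum {H : SimpleGraph V} {K : SimpleGraph W} {F : SimpleGraph α} {t : ℝ} (ht : 0 ≤ t)
    {g0 : W → V} (hg0 : g0 ∈ Om H K) (v0 : V) (E : Finset (Sym2 α))
    (Γ : Finset (α → Option W)) (hΓ : ∀ γ ∈ Γ, Val γ ∧ oe K F γ = E) :
    ∑ γ ∈ Γ, t ^ nn γ ≤
      ((Om H (subG E)).card : ℝ) * (t + Fintype.card W) ^ (Fintype.card α - (sup E).card) := by
  obtain ⟨hg1, hg2⟩ := mem_Om.1 hg0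
  let β := {x : α // x ∉ sup E}
  have hβ : Fintype.card β = Fintype.card α - (sup E).card := by
    rw [Fintype.card_subtype_compl, Fintype.card_coe]
  let m : (α → Option W) → (↥(sup E) → V) × (β → Option W) :=
    fun γ => (fun a => (γ a.1).elim v0 g0, fun b => γ b.1)
  let τ : (↥(sup E) → V) × (β → Option W) → ℝ :=
    fun p => t ^ (univ.filter fun b => p.2 b = none).card
  have hsome : ∀ γ ∈ Γ, ∀ a ∈ sup E, ∃ w, γ a = some w := by
    intro γ hγ a ha
    obtain ⟨e, he, hae⟩ := mem_biUnion.1 ha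
    rw [← (hΓ γ hγ).2] at he
    exact exists_some_of_mem he (Sym2.mem_toFinset.1 hae)
  have hnn : ∀ γ ∈ Γ, t ^ nn γ = τ (m γ) := by
    intro γ hγ
    have h1 : (univ.filter fun x => γ x = none) =
        (univ.filter fun b : β => γ b.1 = none).image Subtype.val := by
      ext x
      simp only [mem_filter, mem_univ, true_and, mem_image]
      constructor
      · intro hx
        have hxs : x ∉ sup E := by
          intro hxs
          obtain ⟨w, hw⟩ := hsome γ hγ x hxs
          rw [hw] at hx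
          simp at hx
        exact ⟨⟨x, hxs⟩, hx, rfl⟩
      · rintro ⟨b, hb, rfl⟩
        exact hb
    unfold nn
    rw [h1, Finset.card_image_of_injective _ Subtype.val_injective]
  have hinj : Set.InjOn m (↑Γ : Set (α → Option W)) := by
    intro γ hγ γ' hγ' h
    funext x
    by_cases hx : x ∈ sup E
    · obtain ⟨w, hw⟩ := hsome γ hγ x hx
      obtain ⟨w', hw'⟩ := hsome γ' hγ' x hx
      have h1 := congrFun (congrArg Prod.fst h) ⟨x, hx⟩
      simp only [m, hw, hw', Option.elim_some] at h1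
      rw [hw, hw', hg1 h1]
    · exact congrFun (congrArg Prod.snd h) ⟨x, hx⟩
  have hmaps : Γ.image m ⊆ (Om H (subG E)) ×ˢ (univ : Finset (β → Option W)) := by
    intro p hp
    obtain ⟨γ, hγ, rfl⟩ := mem_image.1 hp
    refine mem_product.2 ⟨mem_Om.2 ⟨?_, ?_⟩, mem_univ _⟩
    · intro a b hab
      obtain ⟨w, hw⟩ := hsome γ hγ a.1 a.2
      obtain ⟨w', hw'⟩ := hsome γ hγ b.1 b.2
      simp only [m, hw, hw', Option.elim_some] at hab
      have := hg1 hab
      subst this
      exact Subtype.ext ((hΓ γ hγ).1 _ _ _ hw hw')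
    · rintro a b ⟨_, hab⟩
      have hab' : s(a.1, b.1) ∈ oe K F γ := by
        rw [(hΓ γ hγ).2]
        exact hab
      obtain ⟨_, u, v, huv, hx, hy⟩ := mem_oe_pair.1 hab'
      simp only [m, hx, hy, Option.elim_some]
      exact hg2 u v huv
  calc ∑ γ ∈ Γ, t ^ nn γ = ∑ γ ∈ Γ, τ (m γ) := Finset.sum_congr rfl hnn
    _ = ∑ p ∈ Γ.image m, τ p := (Finset.sum_image hinj).symm
    _ ≤ ∑ p ∈ (Om H (subG E)) ×ˢ (univ : Finset (β → Option W)), τ p :=
        Finset.sum_le_sum_of_subset_of_nonneg hmaps (fun p _ _ => by simp only [τ]; positivity)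
    _ = ((Om H (subG E)).card : ℝ) * (t + Fintype.card W) ^ (Fintype.card α - (sup E).card) := by
        rw [Finset.sum_product]
        simp only [τ]
        rw [Finset.sum_const, nsmul_eq_mul, ← hβ]
        congr 1
        exact sum_none1 (W := W) (β := β) _ t

/-- The constant of one gluing step. -/
noncomputable def BB (n : ℕ) (q Lam0 : ℝ) (v e : ℕ) : ℝ :=
  2 ^ e * 2 ^ v * (n : ℝ) ^ v * q ^ e * Lam0 ^ e

lemma BB_pos {n : ℕ} (hn : 0 < n) {q Lam0 : ℝ} (hq : 0 < q) (hL : 0 < Lam0) (v e : ℕ) :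
    0 < BB n q Lam0 v e := by
  have : (0 : ℝ) < n := by exact_mod_cast hn
  unfold BB
  positivity

/-- The total weight of the gluing data. -/
lemma gamma_total {H : SimpleGraph V} {K : SimpleGraph W} {F : SimpleGraph α} {n : ℕ} {q Lam0 : ℝ}
    (hq : 0 < q) (hL : 1 ≤ Lam0) (hW : Fintype.card W ≤ n)
    {g0 : W → V} (hg0 : g0 ∈ Om H K) (v0 : V)
    (hIH : ∀ E : Finset (Sym2 α), E ⊆ F.edgeFinset → 2 * E.card ≤ F.edgeFinset.card →
      ((Om H (subG E)).card : ℝ) ≤ (n : ℝ) ^ (sup E).card * (Lam0 ^ 2 * q) ^ E.card)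
    (Γ : Finset (α → Option W))
    (hΓ : ∀ γ ∈ Γ, Val γ ∧ 2 * (oe K F γ).card ≤ F.edgeFinset.card) :
    ∑ γ ∈ Γ, ((n : ℝ) ^ nn γ * q ^ (F.edgeFinset.card - (oe K F γ).card)) ≤
      BB n q Lam0 (Fintype.card α) F.edgeFinset.card := by
  set e := F.edgeFinset.card with he
  set v := Fintype.card α with hv
  have hn0 : (0 : ℝ) ≤ n := by positivity
  have hL0 : (0 : ℝ) < Lam0 := by linarith
  let T := F.edgeFinset.powerset.filter fun E => 2 * E.card ≤ e
  have hmaps : ∀ γ ∈ Γ, oe K F γ ∈ T := by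
    intro γ hγ
    exact mem_filter.2 ⟨mem_powerset.2 (Finset.filter_subset _ _), (hΓ γ hγ).2⟩
  have hterm : ∀ E ∈ T, ∑ γ ∈ Γ with oe K F γ = E,
      ((n : ℝ) ^ nn γ * q ^ (e - (oe K F γ).card)) ≤ 2 ^ v * (n : ℝ) ^ v * q ^ e * Lam0 ^ e := by
    intro E hE
    obtain ⟨hE1, hE2⟩ := mem_filter.1 hE
    have hEsub := mem_powerset.1 hE1
    have hsupv : (sup E).card ≤ v := Finset.card_le_univ _
    have hEe : E.card ≤ e := Finset.card_le_card hEsub
    have h1 : ∑ γ ∈ Γ with oe K F γ = E, ((n : ℝ) ^ nn γ * q ^ (e - (oe K F γ).card)) =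
        (∑ γ ∈ Γ with oe K F γ = E, (n : ℝ) ^ nn γ) * q ^ (e - E.card) := by
      rw [Finset.sum_mul]
      apply Finset.sum_congr rfl
      intro γ hγ
      rw [(mem_filter.1 hγ).2]
    rw [h1]
    have h2 := fiber_sum (F := F) hn0 hg0 v0 E (Γ.filter fun γ => oe K F γ = E)
      (fun γ hγ => ⟨(hΓ γ (mem_filter.1 hγ).1).1, (mem_filter.1 hγ).2⟩)
    have h3 := hIH E hEsub hE2
    have hq' : 0 ≤ q ^ (e - E.card) := by positivity
    have hWn : (n : ℝ) + Fintype.card W ≤ 2 * n := by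
      have : (Fintype.card W : ℝ) ≤ n := by exact_mod_cast hW
      linarith
    have h4 : ((n : ℝ) + Fintype.card W) ^ (v - (sup E).card) ≤ (2 * (n : ℝ)) ^ (v - (sup E).card) :=
      pow_le_pow_left₀ (by positivity) hWn _
    have h5 : (2 : ℝ) ^ (v - (sup E).card) ≤ 2 ^ v :=
      pow_le_pow_right₀ (by norm_num) (Nat.sub_le _ _)
    have h6 : Lam0 ^ (2 * E.card) ≤ Lam0 ^ e := pow_le_pow_right₀ hL hE2
    have hnv : (n : ℝ) ^ (sup E).card * (n : ℝ) ^ (v - (sup E).card) = (n : ℝ) ^ v := by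
      rw [← pow_add]
      congr 1
      omega
    have hqe : q ^ (e - E.card) * q ^ E.card = q ^ e := by
      rw [← pow_add]
      congr 1
      omega
    calc (∑ γ ∈ Γ with oe K F γ = E, (n : ℝ) ^ nn γ) * q ^ (e - E.card)
        ≤ (((Om H (subG E)).card : ℝ) * ((n : ℝ) + Fintype.card W) ^ (v - (sup E).card)) *
            q ^ (e - E.card) := mul_le_mul_of_nonneg_right h2 hq'
      _ ≤ (((n : ℝ) ^ (sup E).card * (Lam0 ^ 2 * q) ^ E.card) *
            (2 * (n : ℝ)) ^ (v - (sup E).card)) * q ^ (e - E.card) := by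
          apply mul_le_mul_of_nonneg_right _ hq'
          apply mul_le_mul h3 h4 (by positivity) (by positivity)
      _ = (2 : ℝ) ^ (v - (sup E).card) * ((n : ℝ) ^ (sup E).card * (n : ℝ) ^ (v - (sup E).card)) *
            (q ^ (e - E.card) * q ^ E.card) * Lam0 ^ (2 * E.card) := by
          rw [mul_pow, mul_pow, ← pow_mul]
          ring
      _ = (2 : ℝ) ^ (v - (sup E).card) * (n : ℝ) ^ v * q ^ e * Lam0 ^ (2 * E.card) := by
          rw [hnv, hqe]
      _ ≤ 2 ^ v * (n : ℝ) ^ v * q ^ e * Lam0 ^ e := by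
          have : 0 ≤ (n : ℝ) ^ v * q ^ e := by positivity
          have h7 : (2 : ℝ) ^ (v - (sup E).card) * Lam0 ^ (2 * E.card) ≤ 2 ^ v * Lam0 ^ e :=
            mul_le_mul h5 h6 (by positivity) (by positivity)
          calc (2 : ℝ) ^ (v - (sup E).card) * (n : ℝ) ^ v * q ^ e * Lam0 ^ (2 * E.card)
              = ((n : ℝ) ^ v * q ^ e) * ((2 : ℝ) ^ (v - (sup E).card) * Lam0 ^ (2 * E.card)) := by ring
            _ ≤ ((n : ℝ) ^ v * q ^ e) * (2 ^ v * Lam0 ^ e) := mul_le_mul_of_nonneg_left h7 this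
            _ = _ := by ring
  have hT : (T.card : ℝ) ≤ 2 ^ e := by
    have h1 : T.card ≤ F.edgeFinset.powerset.card := Finset.card_filter_le _ _
    rw [Finset.card_powerset] at h1
    exact_mod_cast h1
  rw [← Finset.sum_fiberwise_of_maps_to hmaps]
  calc ∑ E ∈ T, ∑ γ ∈ Γ with oe K F γ = E, ((n : ℝ) ^ nn γ * q ^ (e - (oe K F γ).card))
      ≤ ∑ _E ∈ T, (2 ^ v * (n : ℝ) ^ v * q ^ e * Lam0 ^ e) := Finset.sum_le_sum hterm
    _ = (T.card : ℝ) * (2 ^ v * (n : ℝ) ^ v * q ^ e * Lam0 ^ e) := by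
        rw [Finset.sum_const, nsmul_eq_mul]
    _ ≤ 2 ^ e * (2 ^ v * (n : ℝ) ^ v * q ^ e * Lam0 ^ e) :=
        mul_le_mul_of_nonneg_right hT (by positivity)
    _ = BB n q Lam0 v e := by unfold BB; ring

end Vale.Agent.Lib.P064F
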