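import Vale.Agent.Lib.P064F.Main

open Finset
open scoped Classical

namespace Vale.Agent.Lib.P064F

open Vale.Agent.Lib.P064

variable {V : Type} [Fintype V]

/-- The orbit of an edge under the automorphisms of `H`. -/
noncomputable def orbit (H : SimpleGraph V) (h : Sym2 V) : Finset (Sym2 V) :=
  H.edgeFinset.filter fun h' => ∃ g : H ≃g H, Sym2.map g h = h'

/-- Every edge orbit of `Aut(H)` holds at least a fraction `1 / Lam` of the edges. -/
def OrbitsLarge (H : SimpleGraph V) (Lam : ℕ) : Prop :=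
  ∀ h ∈ H.edgeFinset, H.edgeFinset.card ≤ Lam * (orbit H h).card

/-- `Aut(H)` acts transitively on the edges of `H`. -/
def EdgeTransitive (H : SimpleGraph V) : Prop :=
  ∀ h ∈ H.edgeSet, ∀ h' ∈ H.edgeSet, ∃ g : H ≃g H, Sym2.map g h = h'

lemma orbitsLarge_of_transitive {H : SimpleGraph V} (hH : EdgeTransitive H) : OrbitsLarge H 1 := by
  intro h hh
  rw [one_mul]
  apply Finset.card_le_card
  intro h' hh'
  exact mem_filter.2 ⟨hh', hH h (SimpleGraph.mem_edgeFinset.1 hh) h' (SimpleGraph.mem_edgeFinset.1 hh')⟩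

lemma useCount_le {α : Type} [Fintype α] {H : SimpleGraph V} (F : SimpleGraph α) (g : H ≃g H)
    (h : Sym2 V) : useCount H F h ≤ useCount H F (Sym2.map g h) := by
  unfold useCount
  apply Finset.card_le_card_of_injOn (fun φ => fun x => g (φ x))
  · intro φ hφ
    obtain ⟨h1, h2⟩ := mem_filter.1 (Finset.mem_coe.1 hφ)
    obtain ⟨h3, h4⟩ := mem_Om.1 h1
    refine Finset.mem_coe.2 (mem_filter.2 ⟨mem_Om.2 ⟨?_, ?_⟩, ?_⟩)
    · intro a b hab
      exact h3 (g.injective hab)
    · intro a b hab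
      exact g.map_rel_iff.2 (h4 a b hab)
    · obtain ⟨f, hf, rfl⟩ := mem_image.1 h2
      refine mem_image.2 ⟨f, hf, ?_⟩
      rw [Sym2.map_map]
      rfl
  · intro φ _ φ' _ hφ
    funext x
    exact g.injective (congrFun hφ x)

lemma sum_useCount_le {α : Type} [Fintype α] (H : SimpleGraph V) (F : SimpleGraph α)
    (S : Finset (Sym2 V)) :
    ∑ h ∈ S, useCount H F h ≤ (Om H F).card * F.edgeFinset.card := by
  unfold useCount
  simp only [Finset.card_filter]
  rw [Finset.sum_comm]
  calc ∑ φ ∈ Om H F, ∑ h ∈ S, (if h ∈ F.edgeFinset.image (Sym2.map φ) then 1 else 0)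
      ≤ ∑ _φ ∈ Om H F, F.edgeFinset.card := by
        apply Finset.sum_le_sum
        intro φ _
        rw [← Finset.card_filter]
        calc (S.filter fun h => h ∈ F.edgeFinset.image (Sym2.map φ)).card
            ≤ (F.edgeFinset.image (Sym2.map φ)).card := by
              apply Finset.card_le_card
              intro h hh
              exact (mem_filter.1 hh).2
          _ ≤ _ := Finset.card_image_le
    _ = _ := by rw [Finset.sum_const, smul_eq_mul]

lemma flat_of_orbits {H : SimpleGraph V} {Lam : ℕ} (hO : OrbitsLarge H Lam) : Flat H Lam := by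
  intro α _ F _ h hh
  have h1 := hO h hh
  have h2 : (orbit H h).card * useCount H F h ≤ ∑ h' ∈ orbit H h, useCount H F h' := by
    rw [← smul_eq_mul]
    apply Finset.card_nsmul_le_sum
    intro h' hh'
    obtain ⟨_, g, rfl⟩ := mem_filter.1 hh'
    exact useCount_le F g h
  have h3 := sum_useCount_le H F (orbit H h)
  calc H.edgeFinset.card * useCount H F h
      ≤ (Lam * (orbit H h).card) * useCount H F h := Nat.mul_le_mul_right _ h1
    _ = Lam * ((orbit H h).card * useCount H F h) := by ring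
    _ ≤ Lam * ((Om H F).card * F.edgeFinset.card) := Nat.mul_le_mul_left _ (h2.trans h3)
    _ = _ := by ring

/-- The constant of the flat case. -/
noncomputable def LL (Lam : ℕ) : ℝ := ((2 : ℝ) ^ (5 + 8 * Lam)) ^ 2

lemma LL_pos (Lam : ℕ) : 0 < LL Lam := by unfold LL; positivity

/-- Labelled copies, general `F`. -/
theorem flat_labelled {α : Type} [Fintype α] (F : SimpleGraph α) (H : SimpleGraph V) {n : ℕ}
    {Lam : ℕ} (hn : 2 ≤ n) (hV : Fintype.card V ≤ n) {q : ℝ} (hq : 0 < q) (hq1 : q ≤ 1)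
    (hK : HypK H n q) (hFlat : Flat H Lam) (hLam : 1 ≤ Lam) (ψ : α → V) :
    ((Ext F H ∅ univ ψ).card : ℝ) ≤ (n.descFactorial (Fintype.card α) : ℝ) *
      (Real.exp 1 ^ 2 * LL Lam * q) ^ F.edgeFinset.card := by
  have hn1 : (1 : ℝ) ≤ n := by exact_mod_cast (by omega : 1 ≤ n)
  have hn0 : (0 : ℝ) < n := by linarith
  have hLL := LL_pos Lam
  by_cases hne : (Ext F H ∅ univ ψ).Nonempty
  swap
  · rw [Finset.not_nonempty_iff_eq_empty] at hne
    rw [hne]
    simp only [card_empty, Nat.cast_zero]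
    positivity
  obtain ⟨φ0, hφ0⟩ := hne
  set U := suppF F with hU
  set I : Finset α := univ \ U with hI
  obtain ⟨h01, h02, h03⟩ := mem_Ext.1 hφ0
  -- the bound on the support
  have hchain : ((Ext F H ∅ U ψ).card : ℝ) ≤ (n : ℝ) ^ U.card * (LL Lam * q) ^ F.edgeFinset.card := by
    have hsup : sup F.edgeFinset = U := rfl
    have hmain := main_noiso (by omega) hV hq hq1 hK hFlat hLam F.edgeFinset.card ↥(sup F.edgeFinset)
      (subG F.edgeFinset) (subG_edges (F := F) (le_refl _)) (subG_noIso (F := F) (le_refl _))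
    rw [Fintype.card_coe] at hmain
    have hle : (Ext F H ∅ U ψ).card ≤ (Om H (subG F.edgeFinset)).card := by
      apply Finset.card_le_card_of_injOn (fun φ => fun a => φ a.1)
      · intro φ hφ
        obtain ⟨h1, h2, h3⟩ := mem_Ext.1 (Finset.mem_coe.1 hφ)
        refine Finset.mem_coe.2 (mem_Om.2 ⟨?_, ?_⟩)
        · intro a b hab
          apply Subtype.ext
          apply h2 _ _ hab
          · simp only [empty_union, Finset.mem_coe]
            exact a.2
          · simp only [empty_union, Finset.mem_coe]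
            exact b.2
        · rintro a b ⟨_, hab⟩
          apply h3
          · simp only [empty_union]
            exact a.2
          · simp only [empty_union]
            exact b.2
          · exact SimpleGraph.mem_edgeFinset.1 hab
      · intro φ hφ φ' hφ' h
        obtain ⟨h1, _, _⟩ := mem_Ext.1 (Finset.mem_coe.1 hφ)
        obtain ⟨h1', _, _⟩ := mem_Ext.1 (Finset.mem_coe.1 hφ')
        funext x
        by_cases hx : x ∈ U
        · exact congrFun h ⟨x, hx⟩
        · rw [h1 x hx, h1' x hx]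
    calc ((Ext F H ∅ U ψ).card : ℝ) ≤ ((Om H (subG F.edgeFinset)).card : ℝ) := by exact_mod_cast hle
      _ ≤ _ := hmain
  have hfib := ext_fibers F H (S := ∅) (B := U) (R := univ) ψ (Finset.subset_univ _) (by simp)
  have hUV : U.card ≤ n := by
    have : U.card ≤ (U.image φ0).card := by
      rw [Finset.card_image_of_injOn]
      intro a _ b _ hab
      exact h02 (by simp) (by simp) hab
    exact this.trans ((Finset.card_le_univ _).trans hV)
  have hfill : ∀ φ' ∈ Ext F H ∅ U ψ, (((Ext F H (∅ ∪ U) (univ \ U) φ').card : ℕ) : ℝ) ≤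
      ((n - U.card).descFactorial I.card : ℝ) := by
    intro φ' hφ'
    have hdU : Disjoint U I := Finset.disjoint_sdiff
    have hinj' : Set.InjOn φ' (↑U : Set α) := by
      intro a ha b hb hab
      exact (mem_Ext.1 hφ').2.1 (by simpa using ha) (by simpa using hb) hab
    have h1 := fill_count F H hdU hinj'
    rw [Finset.empty_union]
    have h2 : (Fintype.card V - U.card).descFactorial I.card ≤
        (n - U.card).descFactorial I.card := Nat.descFactorial_le _ (by omega)
    exact_mod_cast h1.trans h2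
  have hcount : ((Ext F H ∅ univ ψ).card : ℝ) ≤
      (Ext F H ∅ U ψ).card * ((n - U.card).descFactorial I.card : ℝ) := by
    calc ((Ext F H ∅ univ ψ).card : ℝ)
        ≤ (((Ext F H ∅ U ψ).biUnion (fun φ' => Ext F H (∅ ∪ U) (univ \ U) φ')).card : ℝ) := by
          exact_mod_cast Finset.card_le_card hfib
      _ ≤ _ := card_biUnion_real _ _ _ hfill
  have hcardI : U.card + I.card = Fintype.card α := by
    rw [hI, Finset.card_sdiff_of_subset (Finset.subset_univ _), Finset.card_univ]
    have := Finset.card_le_univ U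
    omega
  have hdesc : ((n - U.card).descFactorial I.card : ℝ) * (n.descFactorial U.card : ℝ) =
      (n.descFactorial (Fintype.card α) : ℝ) := by
    have := Nat.descFactorial_mul_descFactorial (n := n) (k := U.card) (m := Fintype.card α)
      (by omega)
    have e : Fintype.card α - U.card = I.card := by omega
    rw [e] at this
    exact_mod_cast this
  have hU2 : (U.card : ℝ) ≤ 2 * (F.edgeFinset.card : ℝ) := by
    exact_mod_cast card_suppF_le F
  set t := F.edgeFinset.card with ht
  have hexpU : Real.exp (U.card : ℝ) ≤ Real.exp 1 ^ (2 * t) := by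
    rw [← Real.exp_nat_mul]
    apply Real.exp_le_exp.2
    push_cast
    linarith
  have hpowU := pow_le_exp_desc hUV
  have hD : (0 : ℝ) ≤ ((n - U.card).descFactorial I.card : ℝ) := by positivity
  have hD2 : (0 : ℝ) ≤ (n.descFactorial U.card : ℝ) := by positivity
  have hq't : 0 ≤ (LL Lam * q) ^ t := by positivity
  have hstep : ((Ext F H ∅ U ψ).card : ℝ) ≤
      (Real.exp 1 ^ (2 * t) * (n.descFactorial U.card : ℝ)) * (LL Lam * q) ^ t := by
    calc _ ≤ _ := hchain
      _ ≤ (Real.exp (U.card : ℝ) * (n.descFactorial U.card : ℝ)) * (LL Lam * q) ^ t := by gcongr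
      _ ≤ _ := by gcongr
  calc ((Ext F H ∅ univ ψ).card : ℝ)
      ≤ (Ext F H ∅ U ψ).card * ((n - U.card).descFactorial I.card : ℝ) := hcount
    _ ≤ ((Real.exp 1 ^ (2 * t) * (n.descFactorial U.card : ℝ)) * (LL Lam * q) ^ t) *
          ((n - U.card).descFactorial I.card : ℝ) := mul_le_mul_of_nonneg_right hstep hD
    _ = (((n - U.card).descFactorial I.card : ℝ) * (n.descFactorial U.card : ℝ)) *
        (Real.exp 1 ^ (2 * t) * (LL Lam * q) ^ t) := by ring
    _ = _ := by
      rw [hdesc]
      congr 1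
      rw [pow_mul, ← mul_pow]
      congr 1
      ring

/-- The constant. -/
noncomputable def CC (Lam : ℕ) : ℝ := Real.exp 1 ^ 2 * LL Lam

lemma CC_ge (Lam : ℕ) (hLam : 1 ≤ Lam) : 1 ≤ CC Lam := by
  have h1 : 1 ≤ Real.exp 1 ^ 2 := one_le_pow₀ (by
    have := Real.add_one_le_exp (1 : ℝ)
    linarith)
  have h2 : 1 ≤ LL Lam := by
    unfold LL
    exact one_le_pow₀ (one_le_pow₀ (by norm_num))
  unfold CC
  nlinarith

/-- The pointwise bound in the flat case. -/
theorem flat_pointwise {n : ℕ} (hn : 2 ≤ n) (H : SimpleGraph V) (hV : Fintype.card V ≤ n)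
    (hH : H ≠ ⊥) {Lam : ℕ} (hFlat : Flat H Lam) (hLam : 1 ≤ Lam) {q : ℝ} (hq0 : 0 ≤ q) (hq1 : q ≤ 1)
    (hqF : ∀ F : H.Subgraph, (1 : ℝ) / 2 ≤ expCount n q F.coe) (F : H.Subgraph) :
    (H.copyCount F.coe : ℝ) ≤ expCount n (min 1 (CC Lam * q)) F.coe := by
  have hK := hypK_of hq0 hqF
  have hqpos : 0 < q := q_pos hH hq0 hK
  have hC := CC_ge Lam hLam
  by_cases hcase : 1 ≤ CC Lam * q
  · rw [min_eq_left hcase]
    exact top_bound H hV F.coe
  · push Not at hcase
    rw [min_eq_right hcase.le]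
    have hA : (0 : ℝ) < Nat.card (F.coe ≃g F.coe) := by exact_mod_cast card_aut_pos F.coe
    apply le_of_mul_le_mul_right _ hA
    rw [copy_mul_eq, expCount_mul]
    by_cases hc : Nonempty (F.coe.Copy H)
    · obtain ⟨c⟩ := hc
      have h1 := labelled_le_ext F.coe H (⇑c)
      have h2 := flat_labelled F.coe H hn hV hqpos hq1 hK hFlat hLam (⇑c)
      calc (H.labelledCopyCount F.coe : ℝ) ≤ ((Ext F.coe H ∅ univ ⇑c).card : ℝ) := by
            exact_mod_cast h1
        _ ≤ _ := h2
        _ = _ := rfl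
    · have h0 : H.labelledCopyCount F.coe = 0 := by
        rw [SimpleGraph.labelledCopyCount_eq_zero]
        exact fun hcon => hc hcon
      rw [h0]
      simp only [Nat.cast_zero]
      have : 0 ≤ CC Lam * q := by positivity
      positivity

/-- The main theorem of the flat case. -/
theorem flat_tilde {n : ℕ} (hn : 2 ≤ n) (H : SimpleGraph V) (hV : Fintype.card V ≤ n)
    (hH : H ≠ ⊥) {Lam : ℕ} (hFlat : Flat H Lam) (hLam : 1 ≤ Lam) :
    pTilde n H ≤ CC Lam * pE n H := by
  set Cn : ℝ := CC Lam with hCn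
  have hCnpos : 1 ≤ Cn := CC_ge Lam hLam
  have hbdd : BddBelow {p : ℝ | 0 ≤ p ∧ p ≤ 1 ∧ ∀ F : H.Subgraph,
      (H.copyCount F.coe : ℝ) / 2 ≤ expCount n p F.coe} := ⟨0, fun p hp => hp.1⟩
  have hsubcount : ∀ F : H.Subgraph, 1 ≤ H.copyCount F.coe := by
    intro F
    have : 0 < H.copyCount F.coe := SimpleGraph.copyCount_pos.2 F.coe_isContained
    omega
  have htop : ∀ F : H.Subgraph, (H.copyCount F.coe : ℝ) ≤ expCount n 1 F.coe := by
    intro F
    exact top_bound H hV F.coe
  have h1E : (1 : ℝ) ∈ {p : ℝ | 0 ≤ p ∧ p ≤ 1 ∧ ∀ F : H.Subgraph,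
      (1 : ℝ) / 2 ≤ expCount n p F.coe} := by
    refine ⟨by norm_num, le_rfl, fun F => ?_⟩
    have h1 := htop F
    have h0 : (1 : ℝ) ≤ H.copyCount F.coe := by exact_mod_cast hsubcount F
    linarith
  have hkey : ∀ q ∈ {p : ℝ | 0 ≤ p ∧ p ≤ 1 ∧ ∀ F : H.Subgraph,
      (1 : ℝ) / 2 ≤ expCount n p F.coe}, pTilde n H / Cn ≤ q := by
    rintro q ⟨hq0, hq1, hqF⟩
    have hqpos : 0 < q := q_pos hH hq0 (hypK_of hq0 hqF)
    rw [div_le_iff₀ (by linarith)]
    have hmin : min 1 (Cn * q) ≤ q * Cn := by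
      rw [mul_comm q Cn]; exact min_le_right _ _
    refine le_trans ?_ hmin
    have hmem : min 1 (Cn * q) ∈ {p : ℝ | 0 ≤ p ∧ p ≤ 1 ∧ ∀ F : H.Subgraph,
        (H.copyCount F.coe : ℝ) / 2 ≤ expCount n p F.coe} := by
      refine ⟨le_min (by norm_num) (by positivity), min_le_left _ _, fun F => ?_⟩
      have h1 := flat_pointwise hn H hV hH hFlat hLam hq0 hq1 hqF F
      have h0 : (0 : ℝ) ≤ H.copyCount F.coe := by positivity
      linarith
    exact csInf_le hbdd hmem
  have hfinal : pTilde n H / Cn ≤ pE n H := le_csInf ⟨1, h1E⟩ hkey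
  rw [div_le_iff₀ (by linarith)] at hfinal
  rw [mul_comm] at hfinal
  exact hfinal

end Vale.Agent.Lib.P064F
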